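import Mathlib

/-!
# Cones with a Moreau decomposition  (TASK)

`B` is a symmetric positive definite form, `N` a set of vectors of length `D > 0`.  Bipolar step (`Mor.bipolar`): if `B ξ y ≤ 0` for every `y` in the polar `{y | ∀ n ∈ N, B n y ≤ 0}`, decompose `ξ = y₀ + r n₀`; then
`B y₀ y₀ = B ξ y₀ ≤ 0`, so `ξ = r n₀`.  `Mor.conv`: apply it to `ξ = n₁ + s n₂`; then `r = √(B ξ ξ) / D`.
`Mor.exists_tau`: choose a finite subset `b` of the polar set spanning the same subspace (`exists_linearIndependent` and `LinearIndependent.setFinite`, or `Submodule.exists_finset_span_eq_linearIndepOn`), `τ = ∑ b`.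
If `B n τ = 0` all the nonpositive terms vanish, so `B n y = 0` on the polar set, and the bipolar step for `-n` gives `-n = r n₀` with `r = 1` by lengths.  The last claim: decompose `τ = y₀ + r n₀`, `B n₀ τ = r D² ≥ 0`.
Prefix helper names by `cone_h`.
-/

namespace Vale.Agent.P231

variable {E : Type*} [NormedAddCommGroup E] [NormedSpace ℝ E] [FiniteDimensional ℝ E]
  {B : E →L[ℝ] E →L[ℝ] ℝ} {N : Set E} {D : ℝ}

/-- Every vector is a polar vector plus an orthogonal multiple of an element of `N`. -/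
structure Mor (B : E →L[ℝ] E →L[ℝ] ℝ) (N : Set E) (D : ℝ) : Prop where
  symm : ∀ u v, B u v = B v u
  pos : ∀ u, u ≠ 0 → 0 < B u u
  hD : 0 < D
  len : ∀ n ∈ N, B n n = D ^ 2
  dec : ∀ w, ∃ n₀ ∈ N, ∃ r : ℝ, 0 ≤ r ∧ (∀ n ∈ N, B n (w - r • n₀) ≤ 0) ∧ B n₀ (w - r • n₀) = 0

omit [FiniteDimensional ℝ E] in
theorem cone_h_bip (h : Mor B N D) {ξ : E} (hξ : ∀ y, (∀ n ∈ N, B n y ≤ 0) → B ξ y ≤ 0) :
    ∃ n₀ ∈ N, ∃ r : ℝ, 0 ≤ r ∧ ξ = r • n₀ := by
  obtain ⟨n₀, hn, r, hr, h1, h2⟩ := h.dec ξ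
  refine ⟨n₀, hn, r, hr, sub_eq_zero.1 (by_contra fun h0 => ?_)⟩
  have h3 := h.pos _ h0
  have h4 := hξ _ h1
  generalize hy : ξ - r • n₀ = y at h2 h3 h4
  nth_rw 1 [← hy] at h3
  rw [map_sub, map_smul, sub_apply, smul_apply, h2,
    smul_zero, sub_zero] at h3
  exact absurd h4 (not_le.2 h3)

omit [FiniteDimensional ℝ E] in
theorem cone_h_len (h : Mor B N D) {n : E} (hn : n ∈ N) (r : ℝ) :
    B (r • n) (r • n) = (r * D) ^ 2 := by
  simp only [map_smul, smul_apply, smul_eq_mul, h.len n hn]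
  ring

theorem Mor.conv (h : Mor B N D) {n₁ n₂ : E} (h1 : n₁ ∈ N) (h2 : n₂ ∈ N) {s : ℝ} (hs : 0 ≤ s)
    (h0 : n₁ + s • n₂ ≠ 0) : (D / √(B (n₁ + s • n₂) (n₁ + s • n₂))) • (n₁ + s • n₂) ∈ N := by
  obtain ⟨n₀, hn, r, hr, e⟩ := cone_h_bip h (ξ := n₁ + s • n₂) fun y hy => by
    rw [map_add, map_smul, add_apply, smul_apply,
      smul_eq_mul]
    exact add_nonpos (hy _ h1) (mul_nonpos_of_nonneg_of_nonpos hs (hy _ h2))
  rw [e] at h0 ⊢
  have hr0 : r ≠ 0 := by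
    rintro rfl
    exact h0 (zero_smul _ _)
  have hD := h.hD
  rw [cone_h_len h hn, Real.sqrt_sq (by positivity), smul_smul,
    show D / (r * D) * r = 1 by field_simp, one_smul]
  exact hn

theorem Mor.exists_tau (h : Mor B N D) : ∃ τ : E, (∀ n ∈ N, B n τ ≤ 0) ∧
    (∀ n ∈ N, B n τ = 0 → -n ∈ N) ∧ ∃ v ∈ N, B v τ = 0 := by
  classical
  obtain ⟨b, hb, hsp, hli⟩ := exists_linearIndependent ℝ {y | ∀ n ∈ N, B n y ≤ 0}
  have hf := hli.setFinite
  have h1 : ∀ n ∈ N, ∀ y ∈ hf.toFinset, B n y ≤ 0 := fun n hn y hy =>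
    hb (hf.mem_toFinset.1 hy) n hn
  have h2 : ∀ n ∈ N, B n (∑ y ∈ hf.toFinset, y) ≤ 0 := fun n hn => by
    rw [map_sum]
    exact Finset.sum_nonpos (h1 n hn)
  refine ⟨∑ y ∈ hf.toFinset, y, h2, fun n hn h0 => ?_, ?_⟩
  · rw [map_sum, Finset.sum_eq_zero_iff_of_nonpos (h1 n hn)] at h0
    have h3 : Submodule.span ℝ b ≤ LinearMap.ker (B n : E →ₗ[ℝ] ℝ) :=
      Submodule.span_le.2 fun y hy => h0 y (hf.mem_toFinset.2 hy)
    obtain ⟨n₀, hn₀, r, hr, e⟩ := cone_h_bip h (ξ := -n) fun y hy => by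
      have h4 : B n y = 0 := h3 (hsp ▸ Submodule.subset_span hy)
      rw [map_neg, neg_apply, h4, neg_zero]
    have h4 := cone_h_len h hn₀ r
    rw [← e] at h4
    simp only [map_neg, neg_apply, neg_neg, h.len n hn] at h4
    have hD := h.hD
    have h5 : D = r * D := (pow_left_inj₀ hD.le (by positivity) two_ne_zero).1 h4
    have h6 : r = 1 := mul_right_cancel₀ hD.ne' (by rw [one_mul, ← h5])
    rwa [e, h6, one_smul]
  · obtain ⟨n₀, hn, r, hr, -, h3⟩ := h.dec (∑ y ∈ hf.toFinset, y)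
    refine ⟨n₀, hn, le_antisymm (h2 _ hn) ?_⟩
    rw [map_sub, map_smul, h.len _ hn, sub_eq_zero] at h3
    rw [h3, smul_eq_mul]
    positivity

end Vale.Agent.P231
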